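import Mathlib

/-! P246 (helper815): Lemma S of row B2 (finite dimensional algebras). -/

set_option autoImplicit false
set_option linter.all false

namespace Vale.Agent.P246.R2.H815

universe u v w

section Cancel

variable {R : Type u} [Ring R]

/-- Schur complement -/
theorem cancel_of_bij {S : Type*} {B : Type*} {C : Type*} [AddCommGroup S] [Module R S]
    [AddCommGroup B] [Module R B] [AddCommGroup C] [Module R C]
    (e : (S × B) ≃ₗ[R] (S × C)) (h : Function.Bijective fun s : S => (e (s, 0)).1) :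
    Nonempty (B ≃ₗ[R] C) := by
  let a : S →ₗ[R] S := LinearMap.fst R S C ∘ₗ e.toLinearMap ∘ₗ LinearMap.inl R S B
  let b : B →ₗ[R] S := LinearMap.fst R S C ∘ₗ e.toLinearMap ∘ₗ LinearMap.inr R S B
  let c : S →ₗ[R] C := LinearMap.snd R S C ∘ₗ e.toLinearMap ∘ₗ LinearMap.inl R S B
  let d : B →ₗ[R] C := LinearMap.snd R S C ∘ₗ e.toLinearMap ∘ₗ LinearMap.inr R S B
  have he : ∀ s v, e (s, v) = (a s + b v, c s + d v) := by
    intro s v
    have h1 : ((s, v) : S × B) = (s, 0) + (0, v) := by simp
    rw [h1, map_add]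
    ext <;> simp [a, b, c, d]
  let ae : S ≃ₗ[R] S := LinearEquiv.ofBijective a h
  let g : B →ₗ[R] C := d - c ∘ₗ ae.symm.toLinearMap ∘ₗ b
  have hae : ∀ s, a (ae.symm s) = s := fun s => ae.apply_symm_apply s
  refine ⟨LinearEquiv.ofBijective g ⟨?_, ?_⟩⟩
  · rw [injective_iff_map_eq_zero]
    intro v hv
    have h1 : e (-(ae.symm (b v)), v) = 0 := by
      rw [he]
      ext
      · simp [hae]
      · have : d v - c (ae.symm (b v)) = 0 := hv
        simp only [map_neg]
        simpa [sub_eq_neg_add, add_comm] using this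
    have h2 : ((-(ae.symm (b v)), v) : S × B) = 0 := by
      simpa using h1
    exact (Prod.ext_iff.1 h2).2
  · intro w
    obtain ⟨⟨s, v⟩, hsv⟩ := e.surjective (0, w)
    rw [he] at hsv
    have h1 : a s + b v = 0 := (Prod.ext_iff.1 hsv).1
    have h2 : c s + d v = w := (Prod.ext_iff.1 hsv).2
    refine ⟨v, ?_⟩
    have h3 : s = -(ae.symm (b v)) := by
      have : a s = a (-(ae.symm (b v))) := by
        rw [map_neg, hae]; exact eq_neg_of_add_eq_zero_left h1
      exact h.1 this
    show d v - c (ae.symm (b v)) = w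
    rw [← h2, h3, map_neg]
    abel

/-- cancellation of a simple module -/
theorem cancel_simple {S : Type*} {B : Type*} {C : Type*} [AddCommGroup S] [Module R S]
    [AddCommGroup B] [Module R B] [AddCommGroup C] [Module R C] [IsSimpleModule R S]
    [IsSemisimpleModule R C] (e : (S × B) ≃ₗ[R] (S × C)) : Nonempty (B ≃ₗ[R] C) := by
  let a : S →ₗ[R] S := LinearMap.fst R S C ∘ₗ e.toLinearMap ∘ₗ LinearMap.inl R S B
  let c : S →ₗ[R] C := LinearMap.snd R S C ∘ₗ e.toLinearMap ∘ₗ LinearMap.inl R S B
  rcases LinearMap.bijective_or_eq_zero a with ha | ha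
  · exact cancel_of_bij e ha
  · have hc : Function.Injective c := by
      rw [injective_iff_map_eq_zero]
      intro s hs
      have h1 : e (s, 0) = 0 := by
        ext
        · exact congrArg (fun f : S →ₗ[R] S => f s) ha
        · exact hs
      have h2 : ((s, 0) : S × B) = 0 := by simpa using h1
      exact (Prod.ext_iff.1 h2).1
    obtain ⟨r, hr⟩ := IsSemisimpleModule.extension_property c hc (LinearMap.id : S →ₗ[R] S)
    let θ : (S × C) ≃ₗ[R] (S × C) := LinearEquiv.ofLinear
      (LinearMap.prod (LinearMap.fst R S C + r ∘ₗ LinearMap.snd R S C) (LinearMap.snd R S C))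
      (LinearMap.prod (LinearMap.fst R S C - r ∘ₗ LinearMap.snd R S C) (LinearMap.snd R S C))
      (by ext <;> simp) (by ext <;> simp)
    refine cancel_of_bij (e.trans θ) ?_
    have h1 : (fun s : S => ((e.trans θ) (s, 0)).1) = id := by
      ext s
      have h2 : (e (s, 0)).1 = 0 := congrArg (fun f : S →ₗ[R] S => f s) ha
      have h3 : r ((e (s, 0)).2) = s := congrArg (fun f : S →ₗ[R] S => f s) hr
      show (e (s, 0)).1 + r ((e (s, 0)).2) = s
      rw [h2, h3, zero_add]
    rw [h1]
    exact Function.bijective_id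

/-- cancellation of a semisimple module of finite length -/
theorem cancel {B : Type v} {C : Type w} [AddCommGroup B] [Module R B] [AddCommGroup C]
    [Module R C] [IsSemisimpleRing R] (n : ℕ) : ∀ (A : Type u) [AddCommGroup A] [Module R A],
    Module.length R A = n → Nonempty ((A × B) ≃ₗ[R] (A × C)) → Nonempty (B ≃ₗ[R] C) := by
  induction n with
  | zero =>
    rintro A _ _ hA ⟨e⟩
    have : Subsingleton A := Module.length_eq_zero_iff.1 (by simpa using hA)
    refine cancel_of_bij e ⟨fun x y _ => Subsingleton.elim _ _, fun x => ⟨0, Subsingleton.elim _ _⟩⟩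
  | succ n ih =>
    rintro A _ _ hA ⟨e⟩
    have hnt : Nontrivial A := by
      rw [← Module.length_pos_iff (R := R), hA]
      exact_mod_cast Nat.succ_pos n
    obtain ⟨S, hS⟩ := IsSemisimpleModule.exists_simple_submodule R A
    obtain ⟨A', hA'⟩ := exists_isCompl S
    let q : (S × A') ≃ₗ[R] A := Submodule.prodEquivOfIsCompl S A' hA'
    have hlen : Module.length R A' = n := by
      have h1 : Module.length R A = Module.length R S + Module.length R A' := by
        rw [← q.length_eq, Module.length_prod]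
      rw [hA, Module.length_eq_one] at h1
      have h2 : (1 : ℕ∞) + n = 1 + Module.length R A' := by
        rw [← h1]; push_cast; ring
      exact (WithTop.add_left_cancel (show (1 : ℕ∞) ≠ ⊤ by simp) h2).symm
    refine ih A' hlen ?_
    let e1 : (S × (A' × B)) ≃ₗ[R] (S × (A' × C)) :=
      (LinearEquiv.prodAssoc R S A' B).symm.trans
        ((q.prodCongr (LinearEquiv.refl R B)).trans (e.trans
          ((q.symm.prodCongr (LinearEquiv.refl R C)).trans (LinearEquiv.prodAssoc R S A' C))))
    exact cancel_simple e1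

end Cancel

section Semi

variable {T : Type u} [Ring T] [IsSemisimpleRing T]

theorem lem_semi {M : Type u} [AddCommGroup M] [Module T M] (π : T →ₗ[T] M)
    (hπ : Function.Surjective π) (x y : M) :
    ∃ e t u v : T, e • y = 0 ∧ e * t = t ∧ x = u • y + v • t • x := by
  let φ : T →ₗ[T] M := LinearMap.toSpanSingleton T M y
  let K : Submodule T T := LinearMap.ker φ
  have hK : ∀ r : T, r ∈ K ↔ r • y = 0 := fun r => by
    simp [K, φ, LinearMap.mem_ker]
  obtain ⟨C, hC⟩ := exists_isCompl K
  -- the idempotent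
  obtain ⟨e, he, e', he', hee⟩ : ∃ e ∈ K, ∃ e' ∈ C, e + e' = 1 :=
    Submodule.mem_sup.1 (by rw [hC.sup_eq_top]; trivial)
  have hre : ∀ r ∈ K, r * e = r := by
    intro r hr
    have h1 : r * e + r * e' = r := by rw [← mul_add, hee, mul_one]
    have h2 : r * e' ∈ K := by
      have : r * e' = r - r * e := by rw [← h1]; abel_nf; simp [h1]
      rw [this]
      exact K.sub_mem hr (K.smul_mem r he)
    have h3 : r * e' ∈ C := C.smul_mem r he'
    have h4 : r * e' = 0 := by
      have := hC.disjoint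
      rw [Submodule.disjoint_def] at this
      exact this _ h2 h3
    rw [h4, add_zero] at h1
    exact h1
  -- splittings
  obtain ⟨M', hM'⟩ := exists_isCompl (LinearMap.range φ)
  obtain ⟨P, hP⟩ := exists_isCompl (LinearMap.ker π)
  have E1 : (LinearMap.range φ × K) ≃ₗ[T] T :=
    (((K.quotientEquivOfIsCompl C hC).symm.trans φ.quotKerEquivRange).symm.prodCongr
      (LinearEquiv.refl T K)).trans ((LinearEquiv.prodComm T C K).trans
        (Submodule.prodEquivOfIsCompl K C hC))
  have E2 : (LinearMap.range φ × (M' × LinearMap.ker π)) ≃ₗ[T] T :=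
    (LinearEquiv.prodAssoc T (LinearMap.range φ) M' (LinearMap.ker π)).symm.trans
      (((Submodule.prodEquivOfIsCompl _ M' hM').prodCongr
        (LinearEquiv.refl T (LinearMap.ker π))).trans
        (((((LinearMap.ker π).quotientEquivOfIsCompl P hP).symm.trans
          (π.quotKerEquivOfSurjective hπ)).symm.prodCongr (LinearEquiv.refl T _)).trans
          ((LinearEquiv.prodComm T P (LinearMap.ker π)).trans
            (Submodule.prodEquivOfIsCompl _ P hP))))
  have hfin : Module.length T (LinearMap.range φ) ≠ ⊤ := Module.length_ne_top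
  obtain ⟨θ⟩ := cancel (R := T) (Module.length T (LinearMap.range φ)).toNat
    (LinearMap.range φ) (by rw [ENat.coe_toNat hfin]) ⟨E1.trans E2.symm⟩
  -- the map K -> M'
  let σ : K →ₗ[T] M' := LinearMap.fst T M' (LinearMap.ker π) ∘ₗ θ.toLinearMap
  have hσ : Function.Surjective σ := fun m => ⟨θ.symm (m, 0), by simp [σ]⟩
  let q : M →ₗ[T] M' := M'.linearProjOfIsCompl (LinearMap.range φ) hM'.symm
  have hq : ∀ m : M, q m = 0 → m ∈ LinearMap.range φ := by
    intro m hm
    exact (Submodule.linearProjOfIsCompl_apply_eq_zero_iff hM'.symm).1 hm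
  -- X = T x
  let X : Submodule T M := Submodule.span T {x}
  let qX : X →ₗ[T] (X.map q) := (q.restrict (fun z hz => Submodule.mem_map_of_mem hz) : X →ₗ[T] (X.map q))
  have hqX : Function.Surjective qX := by
    rintro ⟨_, z, hz, rfl⟩
    exact ⟨⟨z, hz⟩, rfl⟩
  obtain ⟨p, hp⟩ := IsSemisimpleModule.extension_property (X.map q).subtype
    (Submodule.subtype_injective _) (LinearMap.id : (X.map q) →ₗ[T] (X.map q))
  obtain ⟨ψ, hψ⟩ := IsSemisimpleModule.lifting_property qX hqX (p ∘ₗ σ)
  have hxX : x ∈ X := Submodule.mem_span_singleton_self x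
  obtain ⟨r, hr⟩ := hσ (q x)
  have h1 : q ((ψ r : X) : M) = q x := by
    have h2 : qX (ψ r) = p (σ r) := congrArg (fun f : K →ₗ[T] (X.map q) => f r) hψ
    have h3 : p (q x) = ⟨q x, Submodule.mem_map_of_mem hxX⟩ :=
      congrArg (fun f : (X.map q) →ₗ[T] (X.map q) => f ⟨q x, Submodule.mem_map_of_mem hxX⟩) hp
    rw [hr, h3] at h2
    exact congrArg Subtype.val h2
  obtain ⟨u, hu⟩ := hq (x - (ψ r : X)) (by rw [map_sub, h1, sub_self])
  obtain ⟨s, hs⟩ := Submodule.mem_span_singleton.1 (ψ ⟨e, he⟩).2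
  have hee2 : e * e = e := hre e he
  have h4 : ((ψ r : X) : M) = (r : T) • (e * s) • x := by
    have h5 : r = (r : T) • (⟨e, he⟩ : K) := Subtype.ext (hre r r.2).symm
    have h6 : (⟨e, he⟩ : K) = e • (⟨e, he⟩ : K) := Subtype.ext hee2.symm
    have h7 : ((ψ ⟨e, he⟩ : X) : M) = e • s • x := by
      rw [hs]
      conv_lhs => rw [h6, map_smul]
      rfl
    conv_lhs => rw [h5, map_smul]
    show (r : T) • ((ψ ⟨e, he⟩ : X) : M) = _
    rw [h7, mul_smul]
  refine ⟨e, e * s, u, r, (hK e).1 he, by rw [← mul_assoc, hee2], ?_⟩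
  have h8 : u • y = x - (ψ r : X) := hu
  rw [h8, ← h4, sub_add_cancel]

end Semi

section Final

variable {k T : Type u} [Field k] [Ring T] [Algebra k T] [Module.Finite k T]

/-- LEMMA S: for a left ideal `J` of a finite dimensional algebra `T` and `x y : T` there is `t`
such that `x ∈ J + T (y + c t x) + rad T` for every nonzero `c : k`. -/
theorem lemS (J : Submodule T T) (x y : T) :
    ∃ t : T, ∀ c : k, c ≠ 0 → ∃ j ∈ J, ∃ s : T,
      x - j - s * (y + c • (t * x)) ∈ Ring.jacobson T := by
  haveI : IsArtinianRing T := IsArtinianRing.of_finite k T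
  let Q := T ⧸ Ring.jacobson T
  haveI : IsSemisimpleRing Q := IsSemiprimaryRing.isSemisimpleRing
  let mk : T →+* Q := Ideal.Quotient.mk (Ring.jacobson T)
  have hmk : Function.Surjective mk := Ideal.Quotient.mk_surjective
  let J' : Ideal Q := Ideal.map mk J
  obtain ⟨e, t', u, v, h1, h2, h3⟩ := lem_semi (T := Q) (M := Q ⧸ J') J'.mkQ J'.mkQ_surjective
    (J'.mkQ (mk x)) (J'.mkQ (mk y))
  obtain ⟨t, ht⟩ := hmk t'
  refine ⟨t, fun c hc => ?_⟩
  -- the scalar
  let a : T := algebraMap k T c
  let b : T := algebraMap k T c⁻¹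
  have hab : a * b = 1 := by
    simp only [a, b, ← map_mul, mul_inv_cancel₀ hc, map_one]
  have hba : b * a = 1 := by
    simp only [a, b, ← map_mul, inv_mul_cancel₀ hc, map_one]
  have hcomm : ∀ z : Q, mk a * z = z * mk a := by
    intro z
    obtain ⟨w, rfl⟩ := hmk z
    rw [← map_mul, ← map_mul, Algebra.commutes]
  have hcommb : ∀ z : Q, mk b * z = z * mk b := by
    intro z
    obtain ⟨w, rfl⟩ := hmk z
    rw [← map_mul, ← map_mul, Algebra.commutes]
  have hbaQ : mk b * mk a = 1 := by rw [← map_mul, hba, map_one]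
  set Y : Q ⧸ J' := J'.mkQ (mk y) with hY
  set X : Q ⧸ J' := J'.mkQ (mk x) with hX
  -- the element `y + c t x`
  have hy : J'.mkQ (mk (y + c • (t * x))) = Y + mk a • t' • X := by
    have h4 : mk (c • (t * x)) = mk a • (t' • mk x) := by
      rw [Algebra.smul_def, map_mul, map_mul, ht]; rfl
    rw [map_add, h4, map_add, map_smul, map_smul]
  have hey : e • (Y + mk a • t' • X) = mk a • t' • X := by
    rw [smul_add, h1, zero_add, smul_smul, ← hcomm, mul_smul, smul_smul e t', h2]
  have htx : t' • X = (mk b * e) • (Y + mk a • t' • X) := by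
    rw [mul_smul, hey, smul_smul, hbaQ, one_smul]
  obtain ⟨s', hs'⟩ : ∃ s' : Q, X = s' • (Y + mk a • t' • X) := by
    refine ⟨u * (1 - e) + v * (mk b * e), ?_⟩
    have h5 : Y = (1 - e) • (Y + mk a • t' • X) := by
      rw [sub_smul, one_smul, hey]; abel
    rw [add_smul, mul_smul, mul_smul, ← h5, ← htx]
    exact h3
  obtain ⟨s, hs⟩ := hmk s'
  have h6 : mk x - mk s * mk (y + c • (t * x)) ∈ J' := by
    rw [← Submodule.Quotient.mk_eq_zero]
    have h7 : (Submodule.Quotient.mk (mk x - mk s * mk (y + c • (t * x))) : Q ⧸ J') =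
        X - s' • J'.mkQ (mk (y + c • (t * x))) := by
      rw [hs]; rfl
    rw [h7, hy, ← hs', sub_self]
  obtain ⟨j, hj, hj'⟩ := (Ideal.mem_map_iff_of_surjective mk hmk).1 h6
  refine ⟨j, hj, s, ?_⟩
  rw [← Ideal.Quotient.eq_zero_iff_mem]
  show mk (x - j - s * (y + c • (t * x))) = 0
  rw [map_sub, map_sub, hj', map_mul]
  abel

end Final

end Vale.Agent.P246.R2.H815
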